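import Mathlib

/-! Pure infiniteness: definitions. -/

namespace Vale.Agent.P133

variable {C : Type} [NonUnitalCStarAlgebra C] [PartialOrder C] [StarOrderedRing C]

/-- The `n`-fold diagonal amplification `H = diag(h, …, h)` satisfies `H ⊕ H ≾ H`:
there are `n × 2n` matrices `x` over `C` with `x* H x` entrywise close to `H ⊕ H`. -/
def AmpProperlyInfinite (n : ℕ) (h : C) : Prop :=
  ∀ ε : ℝ, 0 < ε → ∃ x : Fin n → Fin n ⊕ Fin n → C, ∀ j k : Fin n ⊕ Fin n,
    ‖∑ i, star (x i j) * h * x i k - if j = k then h else 0‖ < ε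

/-- purely infinite -/
def PurelyInfinite (C : Type) [NonUnitalCStarAlgebra C] [PartialOrder C] [StarOrderedRing C] :
    Prop :=
  ∀ h : C, 0 ≤ h → AmpProperlyInfinite 1 h

/-- weakly purely infinite -/
def WeaklyPurelyInfinite (C : Type) [NonUnitalCStarAlgebra C] [PartialOrder C]
    [StarOrderedRing C] : Prop :=
  ∃ n : ℕ, 1 ≤ n ∧ ∀ h : C, 0 ≤ h → AmpProperlyInfinite n h

/-- strongly purely infinite -/
def StronglyPurelyInfinite (C : Type) [NonUnitalCStarAlgebra C] [PartialOrder C]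
    [StarOrderedRing C] : Prop :=
  ∀ x y : C, 0 ≤ x → 0 ≤ y → ∀ ε : ℝ, 0 < ε → ∃ s t : C,
    ‖star s * (x * x) * s - x * x‖ < ε ∧ ‖star t * (y * y) * t - y * y‖ < ε ∧
      ‖star s * (x * y) * t‖ < ε

/-- Finitely many prime ideals control each element: for `a` and `ε > 0` there are pairwise
incomparable closed prime ideals `P j` not containing `a` such that every closed ideal that is
contained in no `P j` has distance less than `ε` from `a`. -/
def FinitelyPrimeControlled (C : Type) [NonUnitalCStarAlgebra C] : Prop :=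
  ∀ (a : C) (ε : ℝ), 0 < ε → ∃ (m : ℕ) (P : Fin m → TwoSidedIdeal C),
    (∀ j, IsClosed (P j : Set C) ∧ a ∉ P j ∧
      ∀ u v : C, (∀ d : C, u * d * v ∈ P j) → u ∈ P j ∨ v ∈ P j) ∧
    (∀ i j, i ≠ j → ¬ P i ≤ P j) ∧
    ∀ I : TwoSidedIdeal C, IsClosed (I : Set C) → (∀ j, ¬ I ≤ P j) → ∃ z ∈ I, ‖a - z‖ < ε

end Vale.Agent.P133
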